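import Mathlib

/-!
# P061: a lower bound for the constant in the strong thin tree conjecture

Conventions of the problem: for a vertex set `S`, the cut of a graph at `S` is the set of
edges with exactly one endpoint in `S`; a graph is `k`-edge-connected when every cut at a
nonempty proper vertex set has at least `k` edges; a spanning tree `T` of `G` is `α`-thin
when `|δ_T(S)| ≤ α |δ_G(S)|` for every nonempty proper `S`.

Here graphs are finite simple graphs on the vertex set `Fin n` (a special case of the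
multigraphs of the problem), and a spanning tree of `G` is a graph `T ≤ G` on the same
vertex set that is a tree.
-/

namespace Vale.Agent.Results.P061.ThinTreeConstant

open Classical in
/-- The number of edges of `G` with exactly one endpoint in `S`
(each such edge is counted once, as the pair (endpoint in `S`, endpoint outside `S`)). -/
noncomputable def cutSize {n : ℕ} (G : SimpleGraph (Fin n)) (S : Finset (Fin n)) : ℕ :=
  (Finset.univ.filter (fun p : Fin n × Fin n => p.1 ∈ S ∧ p.2 ∉ S ∧ G.Adj p.1 p.2)).card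

/-- `G` is `k`-edge-connected: every cut at a nonempty proper vertex set has at least `k` edges. -/
def IsKEdgeConnected {n : ℕ} (G : SimpleGraph (Fin n)) (k : ℕ) : Prop :=
  ∀ S : Finset (Fin n), S.Nonempty → S ≠ Finset.univ → k ≤ cutSize G S

/-- `T` is `α`-thin in `G`: `|δ_T(S)| ≤ α |δ_G(S)|` for every nonempty proper vertex set `S`. -/
def IsThin {n : ℕ} (T G : SimpleGraph (Fin n)) (α : ℝ) : Prop :=
  ∀ S : Finset (Fin n), S.Nonempty → S ≠ Finset.univ → (cutSize T S : ℝ) ≤ α * (cutSize G S : ℝ)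

theorem cutSize_top {n : ℕ} (S : Finset (Fin n)) :
    cutSize (⊤ : SimpleGraph (Fin n)) S = S.card * (n - S.card) := by
  classical
  unfold cutSize
  rw [show S.card * (n - S.card) = (S ×ˢ Sᶜ).card by
    rw [Finset.card_product, Finset.card_compl, Fintype.card_fin]]
  congr 1
  ext p
  simp only [Finset.mem_filter, Finset.mem_univ, true_and, SimpleGraph.top_adj,
    Finset.mem_product, Finset.mem_compl]
  constructor
  · rintro ⟨h1, h2, _⟩
    exact ⟨h1, h2⟩
  · rintro ⟨h1, h2⟩
    refine ⟨h1, h2, ?_⟩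
    intro h
    rw [h] at h1
    exact h2 h1

theorem top_isKEdgeConnected (n : ℕ) :
    IsKEdgeConnected (⊤ : SimpleGraph (Fin n)) (n - 1) := by
  classical
  intro S hne huniv
  rw [cutSize_top]
  have h1 : 1 ≤ S.card := Finset.card_pos.mpr hne
  have h2 : S.card < n := by
    have := Finset.card_lt_card (Finset.ssubset_univ_iff.mpr huniv)
    simpa using this
  obtain ⟨b, hb⟩ : ∃ b, n = S.card + b + 1 := ⟨n - S.card - 1, by omega⟩
  have e1 : n - S.card = b + 1 := by omega
  have e2 : n - 1 = S.card + b := by omega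
  rw [e1, e2]
  nlinarith [Nat.mul_le_mul_right b h1]

/-- Every spanning tree of a graph on `Fin n`, `n ≥ 2`, has a nonempty proper vertex set `S`
all of whose `n - 1` tree edges cross. -/
theorem tree_cut {n : ℕ} (hn : 2 ≤ n) (T : SimpleGraph (Fin n)) (hT : T.IsTree) :
    ∃ S : Finset (Fin n), S.Nonempty ∧ S ≠ Finset.univ ∧ n - 1 ≤ cutSize T S := by
  classical
  obtain ⟨c⟩ := hT.isBipartite
  have hcard : T.edgeFinset.card + 1 = n := by
    have := hT.card_edgeFinset
    simpa using this
  let S : Finset (Fin n) := Finset.univ.filter (fun v => c v = 0)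
  have hsurj : ∀ e ∈ T.edgeFinset, ∃ p ∈ (Finset.univ.filter
      (fun p : Fin n × Fin n => p.1 ∈ S ∧ p.2 ∉ S ∧ T.Adj p.1 p.2)), s(p.1, p.2) = e := by
    intro e
    induction e using Sym2.ind with
    | _ a b =>
      intro he
      rw [SimpleGraph.mem_edgeFinset, SimpleGraph.mem_edgeSet] at he
      have hne : c a ≠ c b := c.valid he
      by_cases ha : c a = 0
      · refine ⟨(a, b), ?_, rfl⟩
        simp only [Finset.mem_filter, Finset.mem_univ, true_and, S]
        refine ⟨ha, ?_, he⟩
        intro hb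
        exact hne (ha.trans hb.symm)
      · have hb : c b = 0 := by
          have h1 : c a = 1 := by omega
          by_contra hb
          have h2 : c b = 1 := by omega
          exact hne (h1.trans h2.symm)
        refine ⟨(b, a), ?_, Sym2.eq_swap⟩
        simp only [Finset.mem_filter, Finset.mem_univ, true_and, S]
        exact ⟨hb, ha, he.symm⟩
  have hle : T.edgeFinset.card ≤ cutSize T S := by
    unfold cutSize
    exact Finset.card_le_card_of_surjOn (fun p => s(p.1, p.2)) (by
      intro e he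
      obtain ⟨p, hp, hpe⟩ := hsurj e he
      exact ⟨p, hp, hpe⟩)
  have hpos : 0 < T.edgeFinset.card := by omega
  obtain ⟨e, he⟩ := Finset.card_pos.mp hpos
  obtain ⟨p, hp, -⟩ := hsurj e he
  simp only [Finset.mem_filter, Finset.mem_univ, true_and] at hp
  refine ⟨S, ⟨p.1, hp.1⟩, ?_, by omega⟩
  intro hS
  exact hp.2.1 (hS ▸ Finset.mem_univ _)

/-- In the complete graph on `n ≥ 2` vertices, every `α`-thin spanning tree has
`4 (n - 1) ≤ α n ^ 2`. -/
theorem thin_top_bound {n : ℕ} (hn : 2 ≤ n) (T : SimpleGraph (Fin n)) (hT : T.IsTree) (α : ℝ)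
    (hthin : IsThin T (⊤ : SimpleGraph (Fin n)) α) : 4 * ((n : ℝ) - 1) ≤ α * (n : ℝ) ^ 2 := by
  obtain ⟨S, hne, huniv, hcut⟩ := tree_cut hn T hT
  have h := hthin S hne huniv
  rw [cutSize_top] at h
  have h1 : ((n - 1 : ℕ) : ℝ) ≤ (cutSize T S : ℝ) := by exact_mod_cast hcut
  have h1' : ((n - 1 : ℕ) : ℝ) = (n : ℝ) - 1 := by
    rw [Nat.cast_sub (by omega)]; simp
  have hs : S.card ≤ n := by
    have := Finset.card_le_univ S
    simpa using this
  have h2 : ((S.card * (n - S.card) : ℕ) : ℝ) = (S.card : ℝ) * ((n : ℝ) - (S.card : ℝ)) := by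
    rw [Nat.cast_mul, Nat.cast_sub hs]
  rw [h2] at h
  have hn' : (2 : ℝ) ≤ (n : ℝ) := by exact_mod_cast hn
  have hsn' : (S.card : ℝ) ≤ (n : ℝ) := by exact_mod_cast hs
  have hs0' : (0 : ℝ) ≤ (S.card : ℝ) := Nat.cast_nonneg _
  generalize (S.card : ℝ) = s at h hsn' hs0'
  have hsn : s ≤ (n : ℝ) := hsn'
  have hs0 : 0 ≤ s := hs0'
  have hprod : 0 ≤ s * ((n : ℝ) - s) := mul_nonneg hs0 (by linarith)
  have hle : (n : ℝ) - 1 ≤ α * (s * ((n : ℝ) - s)) := by linarith
  have hα : 0 < α := by
    by_contra hα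
    have hα' : α ≤ 0 := le_of_not_gt hα
    have : α * (s * ((n : ℝ) - s)) ≤ 0 := mul_nonpos_of_nonpos_of_nonneg hα' hprod
    linarith
  have hq : 4 * (s * ((n : ℝ) - s)) ≤ (n : ℝ) ^ 2 := by nlinarith [sq_nonneg ((n : ℝ) - 2 * s)]
  have : α * (4 * (s * ((n : ℝ) - s))) ≤ α * (n : ℝ) ^ 2 := mul_le_mul_of_nonneg_left hq hα.le
  linarith

/-- **Lower bound for the constant in the strong thin tree conjecture.**

(1) For every `k ≥ 1` there is a `k`-edge-connected simple graph on `k + 1` vertices (the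
complete graph) in which every `α`-thin spanning tree has `α ≥ 4 k / (k + 1) ^ 2`.

(2) Consequently, if `C` is a real number such that for every `k ≥ 1` every `k`-edge-connected
simple graph on at least two vertices has a `(C / k)`-thin spanning tree, then `C ≥ 4`. -/
theorem result :
    (∀ k : ℕ, 1 ≤ k → ∃ G : SimpleGraph (Fin (k + 1)), IsKEdgeConnected G k ∧
        ∀ T : SimpleGraph (Fin (k + 1)), T ≤ G → T.IsTree → ∀ α : ℝ, IsThin T G α →
          4 * (k : ℝ) / ((k : ℝ) + 1) ^ 2 ≤ α) ∧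
    (∀ C : ℝ,
        (∀ k n : ℕ, 1 ≤ k → 2 ≤ n → ∀ G : SimpleGraph (Fin n), IsKEdgeConnected G k →
          ∃ T : SimpleGraph (Fin n), T ≤ G ∧ T.IsTree ∧ IsThin T G (C / (k : ℝ))) →
        4 ≤ C) := by
  have part1 : ∀ k : ℕ, 1 ≤ k → ∃ G : SimpleGraph (Fin (k + 1)), IsKEdgeConnected G k ∧
        ∀ T : SimpleGraph (Fin (k + 1)), T ≤ G → T.IsTree → ∀ α : ℝ, IsThin T G α →
          4 * (k : ℝ) / ((k : ℝ) + 1) ^ 2 ≤ α := by
    intro k hk
    refine ⟨⊤, ?_, ?_⟩
    · have := top_isKEdgeConnected (k + 1)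
      simpa using this
    · intro T _ hT α hthin
      have h := thin_top_bound (n := k + 1) (by omega) T hT α hthin
      have hpos : (0 : ℝ) < ((k : ℝ) + 1) ^ 2 := by positivity
      rw [div_le_iff₀ hpos]
      push_cast at h
      linarith
  refine ⟨part1, ?_⟩
  intro C hC
  by_contra hlt
  have hlt' : C < 4 := lt_of_not_ge hlt
  -- choose k with (4 - C) * k > 12
  obtain ⟨k, hk⟩ := exists_nat_gt (12 / (4 - C))
  have h4C : 0 < 4 - C := by linarith
  have hk0 : (0 : ℝ) < (k : ℝ) := lt_trans (by positivity) hk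
  have hk1 : 1 ≤ k := by
    have : 0 < k := by exact_mod_cast hk0
    omega
  obtain ⟨G, hG, hGT⟩ := part1 k hk1
  obtain ⟨T, hTG, hT, hthin⟩ := hC k (k + 1) hk1 (by omega) G hG
  have hb := hGT T hTG hT _ hthin
  have hpos : (0 : ℝ) < ((k : ℝ) + 1) ^ 2 := by positivity
  rw [div_le_div_iff₀ hpos hk0] at hb
  have hk' : 12 < (4 - C) * (k : ℝ) := by
    rw [div_lt_iff₀ h4C] at hk
    linarith
  have hk1' : (1 : ℝ) ≤ (k : ℝ) := by exact_mod_cast hk1
  nlinarith [mul_pos hk0 hk0]

end Vale.Agent.Results.P061.ThinTreeConstant
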